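import Vale.Agent.P217.Final
import Vale.Agent.P217.LMain
import Vale.Agent.P217.Act

/-! P217, Q1: the invariant prime and radical ideals of the Lubin-Tate ring, together with the
existence of the Honda law, of its universal deformation and of the action of the group `G_n`. -/

namespace Vale.Agent.Results.P217.A_full

open Vale.Agent.P217

theorem result (p n : ℕ) [Fact p.Prime] (hn : 1 ≤ n) (k : Type) [Field k] [Fintype k] [CharP k p]
    (hk : Fintype.card k = p ^ n) :
    (∃ (Γ : FormalGroup (ZMod p)) (F : FormalGroup (E0 p n k)), IsHonda p n Γ ∧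
      IsUniversal (Γ.map (ZMod.castHom dvd_rfl k)) F ∧ HeightCoords F) ∧
    ∀ (Γ : FormalGroup (ZMod p)) (F : FormalGroup (E0 p n k)), IsHonda p n Γ →
      IsUniversal (Γ.map (ZMod.castHom dvd_rfl k)) F → HeightCoords F →
      (∀ (τ : k ≃+* k) (a : PowerSeries k),
        IsIso (Γ.map (ZMod.castHom dvd_rfl k)) (Γ.map (ZMod.castHom dvd_rfl k)) a →
        ∃! σ : E0 p n k ≃+* E0 p n k,
          (∀ c : WittVector p k,
            σ (MvPowerSeries.C c) = MvPowerSeries.C (WittVector.map τ.toRingHom c)) ∧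
          ∃ w : PowerSeries (E0 p n k), IsIso F (F.map σ.toRingHom) w ∧
            PowerSeries.map res w = a) ∧
      (∀ σ : E0 p n k ≃+* E0 p n k, InStab F σ ↔ ∃ (τ : k ≃+* k) (a : PowerSeries k),
        IsIso (Γ.map (ZMod.castHom dvd_rfl k)) (Γ.map (ZMod.castHom dvd_rfl k)) a ∧
        (∀ c : WittVector p k,
          σ (MvPowerSeries.C c) = MvPowerSeries.C (WittVector.map τ.toRingHom c)) ∧
        ∃ w : PowerSeries (E0 p n k), IsIso F (F.map σ.toRingHom) w ∧
          PowerSeries.map res w = a) ∧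
      (∀ P : Ideal (E0 p n k),
        (P.IsPrime ∧ Invariant F P) ↔ ∃ h ≤ n, P = heightIdeal p n k h) ∧
      (∀ J : Ideal (E0 p n k), (J.IsRadical ∧ Invariant F J) ↔
        (∃ h ≤ n, J = heightIdeal p n k h) ∨ J = ⊤) :=
  ⟨exists_LT hn k, fun _ _ hΓ hU hH =>
    ⟨act_existsUnique hU, inStab_iff hU, chai hn hk hΓ hU hH⟩⟩

end Vale.Agent.Results.P217.A_full
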