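import Vale.Agent.P217.Final

namespace Vale.Agent.Results.P217.B_chai

open Vale.Agent.P217

theorem result (p n : ℕ) [Fact p.Prime] (hn : 1 ≤ n) (k : Type) [Field k] [Fintype k] [CharP k p]
    (hk : Fintype.card k = p ^ n) (Γ : FormalGroup (ZMod p)) (hΓ : IsHonda p n Γ)
    (F : FormalGroup (E0 p n k)) (hU : IsUniversal (Γ.map (ZMod.castHom dvd_rfl k)) F)
    (hH : HeightCoords F) :
    (∀ P : Ideal (E0 p n k), (P.IsPrime ∧ Invariant F P) ↔ ∃ h ≤ n, P = heightIdeal p n k h) ∧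
    (∀ J : Ideal (E0 p n k), (J.IsRadical ∧ Invariant F J) ↔
      (∃ h ≤ n, J = heightIdeal p n k h) ∨ J = ⊤) :=
  chai hn hk hΓ hU hH

end Vale.Agent.Results.P217.B_chai
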